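import Vale.Agent.P195.Main

/-!
A finite-dimensional algebra with a finitely generated module that is not projective and has no
higher extensions with itself and with the algebra.
-/

theorem Vale.Agent.Results.P195.ARCounter.result :
    ∀ (k : Type) [Field k] [CharZero k],
      ∃ (A : Type) (_ : Ring A) (_ : Algebra k A), FiniteDimensional k A ∧
        ∃ M : ModuleCat.{0} A, Module.Finite A M ∧ ¬ Module.Projective A M ∧
          ∀ i : ℕ, 1 ≤ i →
            Subsingleton (CategoryTheory.Abelian.Ext.{0} M M i) ∧
            Subsingleton (CategoryTheory.Abelian.Ext.{0} M (ModuleCat.of A A) i) := by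
  intro k _ _
  exact ⟨Vale.Agent.P195.Gam k, inferInstance, inferInstance, inferInstance,
    Vale.Agent.P195.main k⟩
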